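import Vale.Agent.P079.Main

theorem Vale.Agent.Results.P079.Full.result
    (X : Type*) [NormedAddCommGroup X] [NormedSpace ℝ X] [CompleteSpace X]
    (hX : Function.Surjective (NormedSpace.inclusionInDoubleDual ℝ X))
    (C : Set X) (hne : C.Nonempty) (hcl : IsClosed C) (hb : Bornology.IsBounded C)
    (hcv : Convex ℝ C) (T : C → C) (hT : ∀ a b : C, ‖(T a : X) - (T b : X)‖ ≤ ‖(a : X) - (b : X)‖) :
    ∃ x : C, T x = x :=
  Vale.Agent.P079.fixed_point hX C hne hcl hb hcv T hT
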